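import Mathlib

/-!
# P207, part (2,2): the admissible region from the level-2 norms (helper871)

Helper728's observation (#9554): `a = |A h|^2`, `b = |B h|^2` of a unit, divergence free `h` of type
`(2,2)` satisfy `b + 6 ≤ a` (quaternionic) and `b + 10 ≤ a` (Cayley); only Cauchy-Schwarz for
`B A h`, `A B h` and `0 ≤ |H_2 h|^2` are used.
-/

namespace Vale.Agent.P207.H871.Region

/-- Quaternionic case, polynomial form. -/
theorem region_H {m a b : ℝ} (hm : 2 ≤ m) (hb : 0 ≤ b) (hH : 0 ≤ 7 * a - 5 * b - 32)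
    (hBA : 0 ≤ a * ((m - 1) * (a - 6) + 3 * (m + 1) * b))
    (hG : 0 ≤ a * b * (a - b - 6) *
      ((m + 1) * ((m - 1) * a + (m + 2) * b) - 2 * (m - 1) * (m + 2))) :
    b + 6 ≤ a := by
  have ha : 4 < a := by linarith
  have ha0 : 0 < a := by linarith
  rcases hb.eq_or_lt with h0 | h0
  · subst h0
    have h1 : 0 ≤ a * ((m - 1) * (a - 6)) := by
      have : a * ((m - 1) * (a - 6) + 3 * (m + 1) * 0) = a * ((m - 1) * (a - 6)) := by ring
      linarith
    have h2 : 0 ≤ (m - 1) * (a - 6) := nonneg_of_mul_nonneg_right h1 ha0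
    have h3 : 0 ≤ a - 6 := nonneg_of_mul_nonneg_right h2 (by linarith)
    linarith
  · have hK : 0 < (m + 1) * ((m - 1) * a + (m + 2) * b) - 2 * (m - 1) * (m + 2) := by
      have h1 : 0 < (m + 1) * ((m + 2) * b) := by positivity
      have h2 : (m + 1) * (m - 1) * 4 ≤ (m + 1) * (m - 1) * a :=
        mul_le_mul_of_nonneg_left ha.le (by nlinarith)
      nlinarith
    by_contra h
    push Not at h
    have h1 : 0 < a * b := mul_pos ha0 h0
    have h2 : a * b * (a - b - 6) < 0 := mul_neg_of_pos_of_neg h1 (by linarith)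
    have h3 := mul_neg_of_neg_of_pos h2 hK
    linarith

/-- Quaternionic case, in terms of the norms `p = |B A h|^2`, `q = |A B h|^2`,
`g = <B A h, A B h>`. -/
theorem region_H' {m a b p q g : ℝ} (hm : 2 ≤ m) (hb : 0 ≤ b) (hH : 0 ≤ 7 * a - 5 * b - 32)
    (hp : p = a * ((m - 1) * (a - 6) + 3 * (m + 1) * b) / (2 * (2 * m + 3)))
    (hq : q = b * (3 * (m + 1) * a - (m + 2) * (b + 6)) / (2 * m + 3))
    (hg : g = (2 * m + 1) * a * b / (2 * m + 3)) (hp0 : 0 ≤ p) (hcs : g ^ 2 ≤ p * q) :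
    b + 6 ≤ a := by
  have h3 : (0 : ℝ) < 2 * m + 3 := by linarith
  refine region_H hm hb hH ?_ ?_
  · have h1 : a * ((m - 1) * (a - 6) + 3 * (m + 1) * b) = p * (2 * (2 * m + 3)) := by
      rw [hp, div_mul_cancel₀ _ (by positivity)]
    rw [h1]; positivity
  · have h1 : a * ((m - 1) * (a - 6) + 3 * (m + 1) * b) = p * (2 * (2 * m + 3)) := by
      rw [hp, div_mul_cancel₀ _ (by positivity)]
    have h2 : b * (3 * (m + 1) * a - (m + 2) * (b + 6)) = q * (2 * m + 3) := by
      rw [hq, div_mul_cancel₀ _ (by positivity)]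
    have h4 : (2 * m + 1) * a * b = g * (2 * m + 3) := by
      rw [hg, div_mul_cancel₀ _ (by positivity)]
    have h5 : 3 * (a * b * (a - b - 6) *
        ((m + 1) * ((m - 1) * a + (m + 2) * b) - 2 * (m - 1) * (m + 2)))
        = (a * ((m - 1) * (a - 6) + 3 * (m + 1) * b)) *
            (b * (3 * (m + 1) * a - (m + 2) * (b + 6))) - 2 * ((2 * m + 1) * a * b) ^ 2 := by
      ring
    have h6 : (a * ((m - 1) * (a - 6) + 3 * (m + 1) * b)) *
            (b * (3 * (m + 1) * a - (m + 2) * (b + 6))) - 2 * ((2 * m + 1) * a * b) ^ 2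
        = 2 * (2 * m + 3) ^ 2 * (p * q - g ^ 2) := by
      rw [h1, h2, h4]; ring
    have h7 : 0 ≤ 2 * (2 * m + 3) ^ 2 * (p * q - g ^ 2) :=
      mul_nonneg (by positivity) (by linarith)
    linarith

/-- Cayley case, polynomial form. -/
theorem region_C {a b : ℝ} (hb : 0 ≤ b) (hH : 0 ≤ 11 * a - 9 * b - 64)
    (hBA : 0 ≤ a * (2 * a + 25 * b - 20))
    (hG : 0 ≤ a * b * (a - b - 10) * (50 * a + 175 * b - 140)) :
    b + 10 ≤ a := by
  have ha : 5 < a := by linarith
  have ha0 : 0 < a := by linarith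
  rcases hb.eq_or_lt with h0 | h0
  · subst h0
    have h1 : 0 ≤ 2 * a + 25 * 0 - 20 := nonneg_of_mul_nonneg_right hBA ha0
    linarith
  · by_contra h
    push Not at h
    have h1 : 0 < a * b := mul_pos ha0 h0
    have h2 : a * b * (a - b - 10) < 0 := mul_neg_of_pos_of_neg h1 (by linarith)
    have h3 := mul_neg_of_neg_of_pos h2 (show 0 < 50 * a + 175 * b - 140 by linarith)
    linarith

/-- Cayley case, in terms of the norms `p = |B A h|^2`, `q = |A B h|^2`, `g = <B A h, A B h>`. -/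
theorem region_C' {a b p q g : ℝ} (hb : 0 ≤ b) (hH : 0 ≤ 11 * a - 9 * b - 64)
    (hp : p = a * (2 * a + 25 * b - 20) / 33) (hq : q = b * (25 * a - 7 * b - 70) / 22)
    (hg : g = 9 * a * b / 11) (hp0 : 0 ≤ p) (hcs : g ^ 2 ≤ p * q) :
    b + 10 ≤ a := by
  refine region_C hb hH (by linarith) ?_
  have h : a * b * (a - b - 10) * (50 * a + 175 * b - 140) = 726 * (p * q - g ^ 2) := by
    rw [hp, hq, hg]; ring
  rw [h]
  linarith

end Vale.Agent.P207.H871.Region
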