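import Mathlib

/-!
# P207, part (2,2), Cayley case: the universal certificate (helper871)

`n = 16`, `d = 7`, `e = 8`.  `h` of type `(2,2)`, `|h| = 1`, divergence free, `b = |B h|^2`,
`s = |X h|^2`, Casimir eigenvalue `20 s - 160`.  Fields `F1 = V X h`, `F2 = H h` (parts for the
simple root), `Jij = <F_i, (1 - X^2) F_j>`, `c1 = <Z, F1>`, `c2 = <Z, F2>`.
-/

namespace Vale.Agent.P207.H871.CertCay

noncomputable section

def al3 (s : ℝ) : ℝ := (19 * s + 52) / 11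
def al1 (s : ℝ) : ℝ := (19 * s - 8) / 11
/-- `|X^2 h|^2 = s^2 + al3 a + al1 b`. -/
def M2 (s b : ℝ) : ℝ := s ^ 2 + al3 s * (s - b) + al1 s * b
def W1 (s b : ℝ) : ℝ := 24 * (s - b) + 44 * b
def V1 (s b : ℝ) : ℝ := -24 * (s - b) * (al3 s + s) - 44 * b * (al1 s + s)
def W2 (s b : ℝ) : ℝ := -(16 * M2 s b + 4 * V1 s b + 64 * s - 4 * W1 s b) / 3
/-- Pairing `<Z, F1>`. -/
def c1 (s : ℝ) : ℝ := 8 * s
/-- Pairing `<Z, F2>`. -/
def c2 (s b : ℝ) : ℝ := -8 * (s - 4) - 30 * b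
def J11 (s b : ℝ) : ℝ := W2 s b - 8 * M2 s b
def J12 (s b : ℝ) : ℝ := 2 * W1 s b - (W2 s b + V1 s b - 8 * M2 s b) / 2
def J22 (s b : ℝ) : ℝ := W1 s b - 24 * s - 8 * M2 s b - V1 s b - W2 s b / 2

/-- `2 <Z, Y> - <Y, (1 - X^2) Y>` for `Y = x1 F1 + x2 F2`. -/
def val (s b x1 x2 : ℝ) : ℝ :=
  2 * (c1 s * x1 + c2 s b * x2)
    - (J11 s b * x1 ^ 2 + J22 s b * x2 ^ 2 + 2 * (J12 s b * x1 * x2))

/-- **The universal certificate** for the `(2,2)` part in the Cayley case: all `b ≥ 0`,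
`a = s - b ≥ b + 10`. -/
theorem cert {s b : ℝ} (hb : 0 ≤ b) (hs : 10 + 2 * b ≤ s) :
    8 + 4 / 5 < val s b (2 / (5 * s)) (-6 / (5 * s)) := by
  have hs0 : 0 < s := by linarith
  have h : s ^ 2 * (val s b (2 / (5 * s)) (-6 / (5 * s)) - (8 + 4 / 5)) =
      16 + (22464 / 55) * b + (2928 / 55) * (s - (10 + 2 * b))
        + (3936 / 55) * b ^ 2 + (2536 / 55) * ((s - (10 + 2 * b)) * b)
        + (284 / 55) * (s - (10 + 2 * b)) ^ 2 := by
    simp only [val, J11, J12, J22, W2, V1, W1, M2, al3, al1, c1, c2]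
    field_simp
    ring
  obtain ⟨t, rfl⟩ : ∃ t, s = 10 + 2 * b + t := ⟨s - (10 + 2 * b), by ring⟩
  have ht : 0 ≤ t := by linarith
  have h2 : 0 < (10 + 2 * b + t) ^ 2 *
      (val (10 + 2 * b + t) b (2 / (5 * (10 + 2 * b + t))) (-6 / (5 * (10 + 2 * b + t)))
        - (8 + 4 / 5)) := by
    rw [h, show 10 + 2 * b + t - (10 + 2 * b) = t by ring]
    positivity
  have h3 := (mul_pos_iff_of_pos_left (by positivity : 0 < (10 + 2 * b + t) ^ 2)).1 h2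
  linarith

end

end Vale.Agent.P207.H871.CertCay
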