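import Vale.Agent.P207.H871.CertS2

/-!
# P207, part (2,2), quaternionic case: the universal certificate, closed forms (helper871)
-/

namespace Vale.Agent.P207.H871.CertS2

theorem M2_eq {m s b : ℝ} (h3 : 2 * m + 3 ≠ 0) :
    M2 m s b = (
      6 * m * s ^ 2 + 4 * m * s + 6 * s ^ 2 + 24 * s - 36 * b)
      / ((2 * m + 3)) := by
  have h3' : m * 2 + 3 ≠ 0 := by rw [mul_comm m 2]; exact h3
  simp only [M2, al3, al1]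
  field_simp
  ring

theorem V1_eq {m s b : ℝ} (h3 : 2 * m + 3 ≠ 0) :
    V1 m s b = (
      -72 * m ^ 2 * s ^ 2 - 48 * m ^ 2 * s - 72 * m * s * b - 240 * m * s + 384 * m * b + 72 *
      s ^ 2 - 72 * s * b + 288 * s - 288 * b)
      / ((2 * m + 3)) := by
  have h3' : m * 2 + 3 ≠ 0 := by rw [mul_comm m 2]; exact h3
  simp only [V1, al3, al1, e]
  field_simp
  ring

theorem W2_eq {m s b : ℝ} (h3 : 2 * m + 3 ≠ 0) :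
    W2 m s b = (
      80 * m ^ 2 * s ^ 2 + 64 * m ^ 2 * s + 96 * m * s * b + 272 * m * s - 384 * m * b - 80 *
      s ^ 2 + 96 * s * b - 336 * s + 336 * b)
      / ((2 * m + 3)) := by
  have h3' : m * 2 + 3 ≠ 0 := by rw [mul_comm m 2]; exact h3
  simp only [W2, M2_eq h3, V1_eq h3, W1, e]
  field_simp
  ring

theorem J11_eq {m s b : ℝ} (h3 : 2 * m + 3 ≠ 0) :
    J11 m s b = (
      56 * m ^ 2 * s ^ 2 + 48 * m ^ 2 * s + 96 * m * s * b + 192 * m * s - 240 * m * b - 56 *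
      s ^ 2 + 96 * s * b - 240 * s + 192 * b)
      / ((2 * m + 3)) := by
  have h3' : m * 2 + 3 ≠ 0 := by rw [mul_comm m 2]; exact h3
  simp only [J11, W2_eq h3, M2_eq h3, e]
  field_simp
  ring

theorem J12_eq {m s b : ℝ} (h3 : 2 * m + 3 ≠ 0) :
    J12 m s b = (
      8 * m ^ 2 * s ^ 2 + 48 * m ^ 2 * s - 12 * m * s * b + 48 * m * s - 24 * m * b - 8 * s ^
      2 - 12 * s * b - 96 * s + 120 * b)
      / ((2 * m + 3)) := by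
  have h3' : m * 2 + 3 ≠ 0 := by rw [mul_comm m 2]; exact h3
  simp only [J12, W1, V1_eq h3, W2_eq h3, M2_eq h3, e]
  field_simp
  ring

theorem J22_eq {m s b : ℝ} (h3 : 2 * m + 3 ≠ 0) :
    J22 m s b = (
      8 * m ^ 2 * s ^ 2 + 24 * m * s * b + 24 * m * s - 24 * m * b - 8 * s ^ 2 + 24 * s * b -
      24 * s + 12 * b)
      / ((2 * m + 3)) := by
  have h3' : m * 2 + 3 ≠ 0 := by rw [mul_comm m 2]; exact h3
  simp only [J22, W1, V1_eq h3, W2_eq h3, M2_eq h3, e]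
  field_simp
  ring

theorem U_eq {m s b : ℝ} (h3 : 2 * m + 3 ≠ 0) (h2 : m + 2 ≠ 0) :
    U m s b = (
      4 * m ^ 2 * s + 12 * m * b + 24 * m - 4 * s + 12 * b - 24)
      / ((m + 2)) := by
  have h3' : m * 2 + 3 ≠ 0 := by rw [mul_comm m 2]; exact h3
  simp only [U, r3, r4, t4, e]
  field_simp
  ring

theorem J13_eq {m s b : ℝ} (h3 : 2 * m + 3 ≠ 0) (h2 : m + 2 ≠ 0) :
    J13 m s b = (
      -14 * m ^ 3 * s ^ 3 + 26 * m ^ 3 * s ^ 2 * b - 112 * m ^ 3 * s ^ 2 - 12 * m ^ 3 * s * b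
      ^ 2 + 184 * m ^ 3 * s * b - 168 * m ^ 3 * s - 72 * m ^ 3 * b ^ 2 + 168 * m ^ 3 * b - 14
      * m ^ 2 * s ^ 3 + 47 * m ^ 2 * s ^ 2 * b - 336 * m ^ 2 * s ^ 2 - 51 * m ^ 2 * s * b ^ 2
      + 594 * m ^ 2 * s * b - 840 * m ^ 2 * s + 18 * m ^ 2 * b ^ 3 - 258 * m ^ 2 * b ^ 2 + 840
      * m ^ 2 * b + 14 * m * s ^ 3 + 16 * m * s ^ 2 * b + 112 * m * s ^ 2 - 66 * m * s * b ^ 2
      - 16 * m * s * b - 504 * m * s + 36 * m * b ^ 3 - 96 * m * b ^ 2 + 504 * m * b + 14 * s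
      ^ 3 - 5 * s ^ 2 * b + 336 * s ^ 2 - 27 * s * b ^ 2 - 426 * s * b + 1512 * s + 18 * b ^ 3
      + 90 * b ^ 2 - 1512 * b)
      / ((2 * m + 3) * (m + 2)) := by
  have h3' : m * 2 + 3 ≠ 0 := by rw [mul_comm m 2]; exact h3
  simp only [J13, R, r3, t3, k3, e]
  field_simp
  ring

theorem J23_eq {m s b : ℝ} (h3 : 2 * m + 3 ≠ 0) (h2 : m + 2 ≠ 0) :
    J23 m s b = (
      -14 * m ^ 3 * s ^ 3 + 26 * m ^ 3 * s ^ 2 * b - 28 * m ^ 3 * s ^ 2 - 12 * m ^ 3 * s * b ^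
      2 + 28 * m ^ 3 * s * b - 14 * m ^ 2 * s ^ 3 - 16 * m ^ 2 * s ^ 2 * b - 168 * m ^ 2 * s ^
      2 + 66 * m ^ 2 * s * b ^ 2 + 156 * m ^ 2 * s * b - 168 * m ^ 2 * s - 36 * m ^ 2 * b ^ 3
      + 12 * m ^ 2 * b ^ 2 + 168 * m ^ 2 * b + 14 * m * s ^ 3 - 110 * m * s ^ 2 * b + 28 * m *
      s ^ 2 + 168 * m * s * b ^ 2 - 364 * m * s * b - 336 * m * s - 72 * m * b ^ 3 + 336 * m *
      b ^ 2 + 336 * m * b + 14 * s ^ 3 - 68 * s ^ 2 * b + 168 * s ^ 2 + 90 * s * b ^ 2 - 492 *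
      s * b + 504 * s - 36 * b ^ 3 + 324 * b ^ 2 - 504 * b)
      / ((2 * m + 3) * (m + 2)) := by
  have h3' : m * 2 + 3 ≠ 0 := by rw [mul_comm m 2]; exact h3
  simp only [J23, R, r3, U_eq h3 h2]
  field_simp
  ring

theorem sig_eq {m s b : ℝ} (h3 : 2 * m + 3 ≠ 0) (h2 : m + 2 ≠ 0) :
    r4 m s b + t4 m s b + r3 m s b = (
      9 * m * s - 6 * m * b + 22 * m + 9 * s - 6 * b + 98)
      / (2 * (m + 2)) := by
  have h3' : m * 2 + 3 ≠ 0 := by rw [mul_comm m 2]; exact h3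
  simp only [r3, r4, t4]
  field_simp
  ring

theorem tt_eq {m s b : ℝ} (h3 : 2 * m + 3 ≠ 0) (h2 : m + 2 ≠ 0) (h5 : 2 * m + 5 ≠ 0) :
    t5 m s b + k5 m * t4 m s b = (
      3 * m ^ 2 * s + 2 * m ^ 2 * b - 18 * m ^ 2 + 12 * m * b - 3 * s + 10 * b + 18)
      / (2 * (m + 2) * (2 * m + 5)) := by
  have h3' : m * 2 + 3 ≠ 0 := by rw [mul_comm m 2]; exact h3
  have h5' : m * 2 + 5 ≠ 0 := by rw [mul_comm m 2]; exact h5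
  simp only [t5, k5, t4]
  field_simp
  ring

theorem rt_eq {m s b : ℝ} (h3 : 2 * m + 3 ≠ 0) (h2 : m + 2 ≠ 0) (h5 : 2 * m + 5 ≠ 0) :
    12 * r4 m s b * t5 m s b + 4 * k5 m * r4 m s b * t4 m s b = (
      744 * m ^ 3 * s ^ 2 - 126 * m ^ 3 * s * b - 1488 * m ^ 3 * s - 324 * m ^ 3 * b ^ 2 +
      5076 * m ^ 3 * b - 17856 * m ^ 3 + 744 * m ^ 2 * s ^ 2 + 2754 * m ^ 2 * s * b + 5952 * m
      ^ 2 * s - 2484 * m ^ 2 * b ^ 2 + 20916 * m ^ 2 * b - 62496 * m ^ 2 - 744 * m * s ^ 2 +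
      5886 * m * s * b + 1488 * m * s - 3996 * m * b ^ 2 + 46764 * m * b + 17856 * m - 744 * s
      ^ 2 + 3006 * s * b - 5952 * s - 1836 * b ^ 2 + 30924 * b + 62496)
      / (25 * (m + 2) ^ 2 * (2 * m + 5)) := by
  have h3' : m * 2 + 3 ≠ 0 := by rw [mul_comm m 2]; exact h3
  have h5' : m * 2 + 5 ≠ 0 := by rw [mul_comm m 2]; exact h5
  simp only [r4, t5, k5, t4]
  field_simp
  ring

theorem er_eq {m s b : ℝ} (h3 : 2 * m + 3 ≠ 0) (h2 : m + 2 ≠ 0) :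
    2 * e m * r4 m s b + (2 * e m + 20) * t4 m s b = (
      22 * m ^ 2 * s - 12 * m ^ 2 * b + 60 * m ^ 2 + 12 * m * b + 192 * m - 22 * s + 24 * b -
      252)
      / ((m + 2)) := by
  have h3' : m * 2 + 3 ≠ 0 := by rw [mul_comm m 2]; exact h3
  simp only [r4, t4, e]
  field_simp
  ring

theorem in33_eq {m s b : ℝ} (h3 : 2 * m + 3 ≠ 0) (h2 : m + 2 ≠ 0) (h5 : 2 * m + 5 ≠ 0) :
    2 * e m * r4 m s b + (2 * e m + 20) * t4 m s b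
    + (r4 m s b + t4 m s b + r3 m s b) * U m s b - 12 * r4 m s b * t5 m s b
    + 8 * q4 m s b - 4 * k5 m * r4 m s b * t4 m s b = (
      36 * m ^ 3 * s ^ 2 - 24 * m ^ 3 * s * b + 132 * m ^ 3 * s - 24 * m ^ 3 * b + 120 * m ^ 3
      + 36 * m ^ 2 * s ^ 2 + 84 * m ^ 2 * s * b + 798 * m ^ 2 * s - 72 * m ^ 2 * b ^ 2 - 12 *
      m ^ 2 * b + 1644 * m ^ 2 - 36 * m * s ^ 2 + 240 * m * s * b - 132 * m * s - 144 * m * b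
      ^ 2 + 1428 * m * b + 3192 * m - 36 * s ^ 2 + 132 * s * b - 798 * s - 72 * b ^ 2 + 1416 *
      b - 4956)
      / ((m + 2) * (2 * m + 5)) := by
  have h3' : m * 2 + 3 ≠ 0 := by rw [mul_comm m 2]; exact h3
  have h5' : m * 2 + 5 ≠ 0 := by rw [mul_comm m 2]; exact h5
  have e1 : 2 * e m * r4 m s b + (2 * e m + 20) * t4 m s b
      + (r4 m s b + t4 m s b + r3 m s b) * U m s b - 12 * r4 m s b * t5 m s b
      + 8 * q4 m s b - 4 * k5 m * r4 m s b * t4 m s b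
      = (2 * e m * r4 m s b + (2 * e m + 20) * t4 m s b)
      + (r4 m s b + t4 m s b + r3 m s b) * U m s b
      - (12 * r4 m s b * t5 m s b + 4 * k5 m * r4 m s b * t4 m s b) + 8 * q4 m s b := by ring
  rw [e1, er_eq h3 h2, sig_eq h3 h2, U_eq h3 h2, rt_eq h3 h2 h5, q4]
  field_simp
  ring

theorem in34_eq {m s b : ℝ} (h3 : 2 * m + 3 ≠ 0) (h2 : m + 2 ≠ 0) (h5 : 2 * m + 5 ≠ 0) :
    10 * e m + e m * (r4 m s b + t4 m s b + r3 m s b)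
    - 12 * (t5 m s b + k5 m * t4 m s b) = (
      36 * m ^ 2 * s - 24 * m ^ 2 * b + 168 * m ^ 2 - 24 * m * b + 576 * m - 36 * s - 744)
      / ((2 * m + 5)) := by
  have h3' : m * 2 + 3 ≠ 0 := by rw [mul_comm m 2]; exact h3
  have h5' : m * 2 + 5 ≠ 0 := by rw [mul_comm m 2]; exact h5
  rw [sig_eq h3 h2, tt_eq h3 h2 h5, e]
  field_simp
  ring

theorem in44_eq {m s b : ℝ} (h3 : 2 * m + 3 ≠ 0) (h2 : m + 2 ≠ 0) (h5 : 2 * m + 5 ≠ 0) :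
    5 * e m * r5 m s b + (5 * e m + 24) * t5 m s b + 3 * e m * r4 m s b = (
      968 * m ^ 2 * s - 576 * m ^ 2 * b + 4272 * m ^ 2 + 120 * m * b + 15120 * m - 968 * s +
      696 * b - 19392)
      / (5 * (2 * m + 5)) := by
  have h3' : m * 2 + 3 ≠ 0 := by rw [mul_comm m 2]; exact h3
  have h5' : m * 2 + 5 ≠ 0 := by rw [mul_comm m 2]; exact h5
  simp only [r5, t5, r4, e]
  field_simp
  ring

theorem J33_eq {m s b : ℝ} (h3 : 2 * m + 3 ≠ 0) (h2 : m + 2 ≠ 0) (h5 : 2 * m + 5 ≠ 0) :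
    J33 m s b = (
      126 * m ^ 4 * s ^ 4 - 318 * m ^ 4 * s ^ 3 * b + 714 * m ^ 4 * s ^ 3 + 264 * m ^ 4 * s ^
      2 * b ^ 2 - 1362 * m ^ 4 * s ^ 2 * b + 1344 * m ^ 4 * s ^ 2 - 72 * m ^ 4 * s * b ^ 3 +
      720 * m ^ 4 * s * b ^ 2 - 1872 * m ^ 4 * s * b + 840 * m ^ 4 * s - 72 * m ^ 4 * b ^ 3 +
      528 * m ^ 4 * b ^ 2 - 840 * m ^ 4 * b + 252 * m ^ 3 * s ^ 4 - 258 * m ^ 3 * s ^ 3 * b +
      4263 * m ^ 3 * s ^ 3 - 426 * m ^ 3 * s ^ 2 * b ^ 2 - 7095 * m ^ 3 * s ^ 2 * b + 14532 *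
      m ^ 3 * s ^ 2 + 648 * m ^ 3 * s * b ^ 3 + 2436 * m ^ 3 * s * b ^ 2 - 20412 * m ^ 3 * s *
      b + 14028 * m ^ 3 * s - 216 * m ^ 3 * b ^ 4 + 396 * m ^ 3 * b ^ 3 + 5880 * m ^ 3 * b ^ 2
      - 14028 * m ^ 3 * b + 1134 * m ^ 2 * s ^ 3 * b + 2835 * m ^ 2 * s ^ 3 - 2862 * m ^ 2 * s
      ^ 2 * b ^ 2 + 3567 * m ^ 2 * s ^ 2 * b + 32760 * m ^ 2 * s ^ 2 + 2376 * m ^ 2 * s * b ^
      3 - 13170 * m ^ 2 * s * b ^ 2 - 37524 * m ^ 2 * s * b + 56868 * m ^ 2 * s - 648 * m ^ 2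
      * b ^ 4 + 6768 * m ^ 2 * b ^ 3 + 4764 * m ^ 2 * b ^ 2 - 56868 * m ^ 2 * b - 252 * m * s
      ^ 4 + 1770 * m * s ^ 3 * b - 4263 * m * s ^ 3 - 3390 * m * s ^ 2 * b ^ 2 + 22971 * m * s
      ^ 2 * b - 14532 * m * s ^ 2 + 2520 * m * s * b ^ 3 - 30768 * m * s * b ^ 2 + 59724 * m *
      s * b + 32340 * m * s - 648 * m * b ^ 4 + 12060 * m * b ^ 3 - 45192 * m * b ^ 2 - 32340
      * m * b - 126 * s ^ 4 + 696 * s ^ 3 * b - 3549 * s ^ 3 - 1218 * s ^ 2 * b ^ 2 + 13671 *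
      s ^ 2 * b - 34104 * s ^ 2 + 864 * s * b ^ 3 - 15882 * s * b ^ 2 + 78708 * s * b - 104076
      * s - 216 * b ^ 4 + 5760 * b ^ 3 - 44604 * b ^ 2 + 104076 * b)
      / ((2 * m + 3) * (m + 2) * (2 * m + 5)) := by
  have h3' : m * 2 + 3 ≠ 0 := by rw [mul_comm m 2]; exact h3
  have h5' : m * 2 + 5 ≠ 0 := by rw [mul_comm m 2]; exact h5
  rw [J33, in33_eq h3 h2 h5, R, r3]
  field_simp
  ring

theorem J14_eq {m s b : ℝ} (h3 : 2 * m + 3 ≠ 0) (h2 : m + 2 ≠ 0) :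
    J14 m s b = (
      -504 * m ^ 3 * s ^ 3 + 1314 * m ^ 3 * s ^ 2 * b - 3024 * m ^ 3 * s ^ 2 - 1134 * m ^ 3 *
      s * b ^ 2 + 5508 * m ^ 3 * s * b - 4032 * m ^ 3 * s + 324 * m ^ 3 * b ^ 3 - 2484 * m ^ 3
      * b ^ 2 + 4032 * m ^ 3 * b - 504 * m ^ 2 * s ^ 3 + 1314 * m ^ 2 * s ^ 2 * b - 10080 * m
      ^ 2 * s ^ 2 - 1134 * m ^ 2 * s * b ^ 2 + 18396 * m ^ 2 * s * b - 22176 * m ^ 2 * s + 324
      * m ^ 2 * b ^ 3 - 8316 * m ^ 2 * b ^ 2 + 22176 * m ^ 2 * b + 504 * m * s ^ 3 - 1314 * m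
      * s ^ 2 * b + 3024 * m * s ^ 2 + 1134 * m * s * b ^ 2 - 5508 * m * s * b - 16128 * m * s
      - 324 * m * b ^ 3 + 2484 * m * b ^ 2 + 16128 * m * b + 504 * s ^ 3 - 1314 * s ^ 2 * b +
      10080 * s ^ 2 + 1134 * s * b ^ 2 - 18396 * s * b + 42336 * s - 324 * b ^ 3 + 8316 * b ^
      2 - 42336 * b)
      / (5 * (2 * m + 3) * (m + 2)) := by
  have h3' : m * 2 + 3 ≠ 0 := by rw [mul_comm m 2]; exact h3
  simp only [J14, R, r3, r4, e]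
  field_simp
  ring

theorem J24_eq {m s b : ℝ} (h3 : 2 * m + 3 ≠ 0) (h2 : m + 2 ≠ 0) :
    J24 m s b = (
      -168 * m ^ 3 * s ^ 3 + 438 * m ^ 3 * s ^ 2 * b - 1008 * m ^ 3 * s ^ 2 - 378 * m ^ 3 * s
      * b ^ 2 + 1836 * m ^ 3 * s * b - 1344 * m ^ 3 * s + 108 * m ^ 3 * b ^ 3 - 828 * m ^ 3 *
      b ^ 2 + 1344 * m ^ 3 * b - 168 * m ^ 2 * s ^ 3 + 438 * m ^ 2 * s ^ 2 * b - 3360 * m ^ 2
      * s ^ 2 - 378 * m ^ 2 * s * b ^ 2 + 6132 * m ^ 2 * s * b - 7392 * m ^ 2 * s + 108 * m ^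
      2 * b ^ 3 - 2772 * m ^ 2 * b ^ 2 + 7392 * m ^ 2 * b + 168 * m * s ^ 3 - 438 * m * s ^ 2
      * b + 1008 * m * s ^ 2 + 378 * m * s * b ^ 2 - 1836 * m * s * b - 5376 * m * s - 108 * m
      * b ^ 3 + 828 * m * b ^ 2 + 5376 * m * b + 168 * s ^ 3 - 438 * s ^ 2 * b + 3360 * s ^ 2
      + 378 * s * b ^ 2 - 6132 * s * b + 14112 * s - 108 * b ^ 3 + 2772 * b ^ 2 - 14112 * b)
      / (5 * (2 * m + 3) * (m + 2)) := by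
  have h3' : m * 2 + 3 ≠ 0 := by rw [mul_comm m 2]; exact h3
  simp only [J24, R, r3, r4, e]
  field_simp
  ring

theorem J34_eq {m s b : ℝ} (h3 : 2 * m + 3 ≠ 0) (h2 : m + 2 ≠ 0) (h5 : 2 * m + 5 ≠ 0) :
    J34 m s b = (
      1512 * m ^ 4 * s ^ 4 - 4950 * m ^ 4 * s ^ 3 * b + 16128 * m ^ 4 * s ^ 3 + 6030 * m ^ 4 *
      s ^ 2 * b ^ 2 - 40968 * m ^ 4 * s ^ 2 * b + 54432 * m ^ 4 * s ^ 2 - 3240 * m ^ 4 * s * b
      ^ 3 + 34344 * m ^ 4 * s * b ^ 2 - 97272 * m ^ 4 * s * b + 56448 * m ^ 4 * s + 648 * m ^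
      4 * b ^ 4 - 9504 * m ^ 4 * b ^ 3 + 42840 * m ^ 4 * b ^ 2 - 56448 * m ^ 4 * b + 3024 * m
      ^ 3 * s ^ 4 - 10908 * m ^ 3 * s ^ 3 * b + 77616 * m ^ 3 * s ^ 3 + 14688 * m ^ 3 * s ^ 2
      * b ^ 2 - 203832 * m ^ 3 * s ^ 2 * b + 407232 * m ^ 3 * s ^ 2 - 8748 * m ^ 3 * s * b ^ 3
      + 177408 * m ^ 3 * s * b ^ 2 - 738144 * m ^ 3 * s * b + 560448 * m ^ 3 * s + 1944 * m ^
      3 * b ^ 4 - 51192 * m ^ 3 * b ^ 3 + 330912 * m ^ 3 * b ^ 2 - 560448 * m ^ 3 * b - 3024 *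
      m ^ 2 * s ^ 3 * b + 45360 * m ^ 2 * s ^ 3 + 7884 * m ^ 2 * s ^ 2 * b ^ 2 - 148104 * m ^
      2 * s ^ 2 * b + 697536 * m ^ 2 * s ^ 2 - 6804 * m ^ 2 * s * b ^ 3 + 156528 * m ^ 2 * s *
      b ^ 2 - 1315440 * m ^ 2 * s * b + 1600704 * m ^ 2 * s + 1944 * m ^ 2 * b ^ 4 - 53784 * m
      ^ 2 * b ^ 3 + 617904 * m ^ 2 * b ^ 2 - 1600704 * m ^ 2 * b - 3024 * m * s ^ 4 + 6876 * m
      * s ^ 3 * b - 77616 * m * s ^ 3 - 4176 * m * s ^ 2 * b ^ 2 + 151416 * m * s ^ 2 * b -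
      407232 * m * s ^ 2 - 324 * m * s * b ^ 3 - 81792 * m * s * b ^ 2 + 592992 * m * s * b +
      407232 * m * s + 648 * m * b ^ 4 + 7992 * m * b ^ 3 - 185760 * m * b ^ 2 - 407232 * m *
      b - 1512 * s ^ 4 + 3942 * s ^ 3 * b - 61488 * s ^ 3 - 3402 * s ^ 2 * b ^ 2 + 136656 * s
      ^ 2 * b - 751968 * s ^ 2 + 972 * s * b ^ 3 - 95256 * s * b ^ 2 + 1267560 * s * b -
      2624832 * s + 20088 * b ^ 3 - 515592 * b ^ 2 + 2624832 * b)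
      / (5 * (2 * m + 3) * (m + 2) * (2 * m + 5)) := by
  have h3' : m * 2 + 3 ≠ 0 := by rw [mul_comm m 2]; exact h3
  have h5' : m * 2 + 5 ≠ 0 := by rw [mul_comm m 2]; exact h5
  rw [J34, in34_eq h3 h2 h5, R, r3, r4]
  field_simp
  ring

theorem J44_eq {m s b : ℝ} (h3 : 2 * m + 3 ≠ 0) (h2 : m + 2 ≠ 0) (h5 : 2 * m + 5 ≠ 0) :
    J44 m s b = (
      40656 * m ^ 4 * s ^ 4 - 130188 * m ^ 4 * s ^ 3 * b + 423360 * m ^ 4 * s ^ 3 + 154548 * m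
      ^ 4 * s ^ 2 * b ^ 2 - 1057248 * m ^ 4 * s ^ 2 * b + 1401792 * m ^ 4 * s ^ 2 - 80568 * m
      ^ 4 * s * b ^ 3 + 868464 * m ^ 4 * s * b ^ 2 - 2479632 * m ^ 4 * s * b + 1435392 * m ^ 4
      * s + 15552 * m ^ 4 * b ^ 4 - 234576 * m ^ 4 * b ^ 3 + 1077840 * m ^ 4 * b ^ 2 - 1435392
      * m ^ 4 * b + 81312 * m ^ 3 * s ^ 4 - 255336 * m ^ 3 * s ^ 3 * b + 2050944 * m ^ 3 * s ^
      3 + 295956 * m ^ 3 * s ^ 2 * b ^ 2 - 5118216 * m ^ 3 * s ^ 2 * b + 10589376 * m ^ 3 * s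
      ^ 2 - 149796 * m ^ 3 * s * b ^ 3 + 4199760 * m ^ 3 * s * b ^ 2 - 18781680 * m ^ 3 * s *
      b + 14410368 * m ^ 3 * s + 27864 * m ^ 3 * b ^ 4 - 1132488 * m ^ 3 * b ^ 3 + 8192304 * m
      ^ 3 * b ^ 2 - 14410368 * m ^ 3 * b + 15120 * m ^ 2 * s ^ 3 * b + 1204224 * m ^ 2 * s ^ 3
      - 39420 * m ^ 2 * s ^ 2 * b ^ 2 - 2872680 * m ^ 2 * s ^ 2 * b + 18302592 * m ^ 2 * s ^ 2
      + 34020 * m ^ 2 * s * b ^ 3 + 2223792 * m ^ 2 * s * b ^ 2 - 32393136 * m ^ 2 * s * b +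
      41577984 * m ^ 2 * s - 9720 * m ^ 2 * b ^ 4 - 555336 * m ^ 2 * b ^ 3 + 14090544 * m ^ 2
      * b ^ 2 - 41577984 * m ^ 2 * b - 81312 * m * s ^ 4 + 275496 * m * s ^ 3 * b - 2050944 *
      m * s ^ 3 - 348516 * m * s ^ 2 * b ^ 2 + 5380296 * m * s ^ 2 * b - 10589376 * m * s ^ 2
      + 195156 * m * s * b ^ 3 - 4677840 * m * s * b ^ 2 + 19507440 * m * s * b + 10991232 * m
      * s - 40824 * m * b ^ 4 + 1348488 * m * b ^ 3 - 8918064 * m * b ^ 2 - 10991232 * m * b -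
      40656 * s ^ 4 + 135228 * s ^ 3 * b - 1627584 * s ^ 3 - 167688 * s ^ 2 * b ^ 2 + 4192008
      * s ^ 2 * b - 19704384 * s ^ 2 + 91908 * s * b ^ 3 - 3570336 * s * b ^ 2 + 35598528 * s
      * b - 68414976 * s - 18792 * b ^ 4 + 1005912 * b ^ 3 - 15894144 * b ^ 2 + 68414976 * b)
      / (25 * (2 * m + 3) * (m + 2) * (2 * m + 5)) := by
  have h3' : m * 2 + 3 ≠ 0 := by rw [mul_comm m 2]; exact h3
  have h5' : m * 2 + 5 ≠ 0 := by rw [mul_comm m 2]; exact h5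
  rw [J44, in44_eq h3 h2 h5, R, r3, r4]
  field_simp
  ring

end Vale.Agent.P207.H871.CertS2
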