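import Vale.Agent.P207.H871.CertS2b

/-!
# P207, part (2,2), quaternionic case: the universal certificate, conclusion (helper871)
-/

namespace Vale.Agent.P207.H871.CertS2

/-- `s ^ 4 * val` at the universal vector, as a linear form in the Gram entries. -/
noncomputable def lin (m s b : ℝ) : ℝ :=
  c1 m s * s ^ 3 - 7 / 2 * (c2 m s b * s ^ 3)
    - (J11 m s b * s ^ 2 / 4 + 49 / 16 * J22 m s b * s ^ 2 + 9 / 64 * J33 m s b
      + 49 / 10000 * J44 m s b - 7 / 4 * J12 m s b * s ^ 2 - 3 / 8 * J13 m s b * s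
      + 7 / 100 * J14 m s b * s + 21 / 16 * J23 m s b * s - 49 / 200 * J24 m s b * s
      - 21 / 400 * J34 m s b)

theorem val_lin {m s b : ℝ} (hs : s ≠ 0) :
    s ^ 4 * val m s b (1 / (2 * s)) (-7 / (4 * s)) (-3 / (8 * s ^ 2)) (7 / (100 * s ^ 2))
      = lin m s b := by
  have hv : ∀ x11 x12 x13 x14 x22 x23 x24 x33 x34 x44 y1 y2 : ℝ,
      s ^ 4 * (2 * (y1 * (1 / (2 * s)) + y2 * (-7 / (4 * s)))
    - (x11 * (1 / (2 * s)) ^ 2 + x22 * (-7 / (4 * s)) ^ 2 + x33 * (-3 / (8 * s ^ 2)) ^ 2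
      + x44 * (7 / (100 * s ^ 2)) ^ 2
      + 2 * (x12 * (1 / (2 * s)) * (-7 / (4 * s)) + x13 * (1 / (2 * s)) * (-3 / (8 * s ^ 2))
        + x14 * (1 / (2 * s)) * (7 / (100 * s ^ 2))
        + x23 * (-7 / (4 * s)) * (-3 / (8 * s ^ 2)) + x24 * (-7 / (4 * s)) * (7 / (100 * s ^ 2))
        + x34 * (-3 / (8 * s ^ 2)) * (7 / (100 * s ^ 2)))))
      = y1 * s ^ 3 - 7 / 2 * (y2 * s ^ 3)
    - (x11 * s ^ 2 / 4 + 49 / 16 * x22 * s ^ 2 + 9 / 64 * x33
      + 49 / 10000 * x44 - 7 / 4 * x12 * s ^ 2 - 3 / 8 * x13 * s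
      + 7 / 100 * x14 * s + 21 / 16 * x23 * s - 49 / 200 * x24 * s
      - 21 / 400 * x34) := by
    intros
    field_simp
    ring
  exact hv _ _ _ _ _ _ _ _ _ _ _ _

theorem lin_eq {m s b : ℝ} (h3 : 2 * m + 3 ≠ 0) (h2 : m + 2 ≠ 0) (h5 : 2 * m + 5 ≠ 0) :
    1000000 * (2 * m + 3) * (m + 2) * (2 * m + 5) * (lin m s b - 21 / 20 * e m * s ^ 4)
      = P m s b := by
  have a11 := eq_div_iff h3 |>.1 (J11_eq (s := s) (b := b) h3)
  have a12 := eq_div_iff h3 |>.1 (J12_eq (s := s) (b := b) h3)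
  have a22 := eq_div_iff h3 |>.1 (J22_eq (s := s) (b := b) h3)
  have a13 := eq_div_iff (mul_ne_zero h3 h2) |>.1 (J13_eq (s := s) (b := b) h3 h2)
  have a23 := eq_div_iff (mul_ne_zero h3 h2) |>.1 (J23_eq (s := s) (b := b) h3 h2)
  have a33 := eq_div_iff (mul_ne_zero (mul_ne_zero h3 h2) h5) |>.1
    (J33_eq (s := s) (b := b) h3 h2 h5)
  have a14 := eq_div_iff (mul_ne_zero (mul_ne_zero (by norm_num) h3) h2) |>.1
    (J14_eq (s := s) (b := b) h3 h2)
  have a24 := eq_div_iff (mul_ne_zero (mul_ne_zero (by norm_num) h3) h2) |>.1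
    (J24_eq (s := s) (b := b) h3 h2)
  have a34 := eq_div_iff (mul_ne_zero (mul_ne_zero (mul_ne_zero (by norm_num) h3) h2) h5) |>.1
    (J34_eq (s := s) (b := b) h3 h2 h5)
  have a44 := eq_div_iff (mul_ne_zero (mul_ne_zero (mul_ne_zero (by norm_num) h3) h2) h5) |>.1
    (J44_eq (s := s) (b := b) h3 h2 h5)
  simp only [lin, c1, c2, e, P]
  linear_combination -(1000000 * (m + 2) * (2 * m + 5) * s ^ 2 / 4) * a11
    - (1000000 * (m + 2) * (2 * m + 5) * s ^ 2 * 49 / 16) * a22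
    + (1000000 * (m + 2) * (2 * m + 5) * s ^ 2 * 7 / 4) * a12
    + (1000000 * (2 * m + 5) * s * 3 / 8) * a13
    - (1000000 * (2 * m + 5) * s * 21 / 16) * a23
    - (1000000 * 9 / 64) * a33
    - (1000000 * (2 * m + 5) * s * 7 / 100 / 5) * a14
    + (1000000 * (2 * m + 5) * s * 49 / 200 / 5) * a24
    + (1000000 * 21 / 400 / 5) * a34
    - (1000000 * 49 / 10000 / 25) * a44

/-- **The universal certificate** for the `(2,2)` part, all quaternionic cases `m ≥ 2`, all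
`b ≥ 0`, `a = s - b ≥ b + 6`: one constant vector of coefficients. -/
theorem cert {m s b : ℝ} (hm : 2 ≤ m) (hb : 0 ≤ b) (hs : 6 + 2 * b ≤ s) :
    e m + e m / 20 <
      val m s b (1 / (2 * s)) (-7 / (4 * s)) (-3 / (8 * s ^ 2)) (7 / (100 * s ^ 2)) := by
  have hs0 : 0 < s := by linarith
  have h3 : 0 < 2 * m + 3 := by linarith
  have h2 : 0 < m + 2 := by linarith
  have h5 : 0 < 2 * m + 5 := by linarith
  have h := lin_eq (s := s) (b := b) h3.ne' h2.ne' h5.ne'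
  have hp := P_pos hm hb hs
  rw [← h, ← val_lin hs0.ne'] at hp
  have hX : 0 < 1000000 * (2 * m + 3) * (m + 2) * (2 * m + 5) := by positivity
  have h1 := (mul_pos_iff_of_pos_left hX).1 hp
  have h4 : 0 < s ^ 4 := by positivity
  have h6 : 0 < s ^ 4 * (val m s b (1 / (2 * s)) (-7 / (4 * s)) (-3 / (8 * s ^ 2))
      (7 / (100 * s ^ 2)) - 21 / 20 * e m) := by linarith
  have h7 := (mul_pos_iff_of_pos_left h4).1 h6
  linarith

end Vale.Agent.P207.H871.CertS2
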